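import Vale.Agent.P082.Conv

/-! The bounded Hochschild cohomology of every von Neumann algebra vanishes. -/

open Vale.Agent.P082 in
theorem Vale.Agent.Results.P082.Cohomology.result
    {H : Type*} [NormedAddCommGroup H] [InnerProductSpace ℂ H] [CompleteSpace H]
    (M : VonNeumannAlgebra H) (k : ℕ)
    (f : MultilinearMap ℂ (fun _ : Fin (k + 1) => M.toStarSubalgebra) M.toStarSubalgebra)
    (hb : ∃ C : ℝ, ∀ a, ‖(f a : H →L[ℂ] H)‖ ≤ C * ∏ i, ‖(a i : H →L[ℂ] H)‖)
    (hf : ∀ a, hoch f a = 0) :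
    ∃ g : MultilinearMap ℂ (fun _ : Fin k => M.toStarSubalgebra) M.toStarSubalgebra,
      (∃ C : ℝ, ∀ a, ‖(g a : H →L[ℂ] H)‖ ≤ C * ∏ i, ‖(a i : H →L[ℂ] H)‖) ∧
        ∀ a, hoch g a = f a := by
  have hc : IsClosed (M.toStarSubalgebra : Set (H →L[ℂ] H)) := by
    rw [M.coe_toStarSubalgebra, ← M.centralizer_centralizer]
    exact Set.isClosed_centralizer _
  letI : CStarAlgebra M.toStarSubalgebra := StarSubalgebra.cstarAlgebra _ (h_closed := hc)
  letI : PartialOrder M.toStarSubalgebra := CStarAlgebra.spectralOrder _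
  haveI : StarOrderedRing M.toStarSubalgebra := CStarAlgebra.spectralOrderedRing _
  refine vanish_mult (ρ := M.toStarSubalgebra.subtype) (𝒮 := M.commutant)
    ⟨Subtype.val_injective, fun x s hs => (M.mem_commutant_iff.1 hs x x.2).symm,
      fun T hT => ⟨⟨T, ?_⟩, rfl⟩, fun s hs => star_mem hs⟩ k f hb hf
  rw [M.mem_carrier, ← M.centralizer_centralizer, ← M.coe_commutant]
  exact hT
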